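import Crest.Agent.R110B.Defs

set_option autoImplicit false

namespace Crest.Agent.R110B

variable {U : Type*} [CStarAlgebra U] [PartialOrder U] [StarOrderedRing U]

/-- `f 0 = 0` puts `f(a)` in the closure of `a U`: approximate `f` uniformly on the spectrum by
`t * g t`, `g t = f t * t / (t ^ 2 + η)`. -/
theorem cfc_mem_closure {a : U} (ha : IsSelfAdjoint a) {f : ℝ → ℝ} (hf : Continuous f)
    (h0 : f 0 = 0) : cfc f a ∈ closure (Set.range fun r : U => a * r) := by
  sorry

/-- Apply `cfc_mem_closure` to `f - f 0` and take adjoints. -/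
theorem cfc_mul_of_mul_eq_zero {a c : U} (ha : IsSelfAdjoint a) (hac : a * c = 0) {f : ℝ → ℝ}
    (hf : Continuous f) : cfc f a * c = f 0 • c := by
  sorry

/-- `v = (k + η)⁻¹ σ` (as `cfc (fun t => (max t 0 + η)⁻¹) k * σ`); the error has squared norm
`≤ η / 4`. -/
theorem ap {k σ : U} (hk : 0 ≤ k) (h : σ * star σ ≤ k) {θ : ℝ} (hθ : 0 < θ) :
    ∃ v : U, ‖k * v - σ‖ < θ := by
  sorry

end Crest.Agent.R110B
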