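import Crest.Agent.R110B.Defs

set_option autoImplicit false

namespace Crest.Agent.R110B

variable {U : Type*} [CStarAlgebra U] [PartialOrder U] [StarOrderedRing U]

lemma cut_nonneg (e t : ℝ) : 0 ≤ cut e t := le_max_right _ _

lemma cut_zero {e : ℝ} (he : 0 ≤ e) : cut e 0 = 0 := by
  sorry

lemma ramp_nonneg (e t : ℝ) : 0 ≤ ramp e t := le_max_right _ _

lemma ramp_le_one (e t : ℝ) : ramp e t ≤ 1 := max_le (min_le_right _ _) zero_le_one

lemma ramp_eq_zero {e t : ℝ} (he : 0 < e) (ht : t ≤ e) : ramp e t = 0 := by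
  sorry

lemma ramp_eq_one {e t : ℝ} (he : 0 < e) (ht : 2 * e ≤ t) : ramp e t = 1 := by
  sorry

lemma ramp_le_cut {e : ℝ} (he : 0 < e) (t : ℝ) : ramp e t ≤ e⁻¹ * cut e t := by
  sorry

theorem cfc_cut_nonneg (e : ℝ) (a : U) : 0 ≤ cfc (cut e) a := by
  sorry

theorem cfc_ramp_nonneg (e : ℝ) (a : U) : 0 ≤ cfc (ramp e) a := by
  sorry

theorem cfc_ramp_le_one (e : ℝ) (a : U) : cfc (ramp e) a ≤ 1 := by
  sorry

theorem norm_le_one_of {a : U} (h0 : 0 ≤ a) (h1 : a ≤ 1) : ‖a‖ ≤ 1 := by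
  sorry

theorem norm_cut_sub {n : U} (hn : 0 ≤ n) {e : ℝ} (he : 0 ≤ e) : ‖cfc (cut e) n - n‖ ≤ e := by
  sorry

theorem cut_le {n : U} (hn : 0 ≤ n) {e : ℝ} (he : 0 ≤ e) : cfc (cut e) n ≤ n := by
  sorry

theorem le_cut_add {n : U} (hn : IsSelfAdjoint n) (e : ℝ) :
    n ≤ cfc (cut e) n + algebraMap ℝ U e := by
  sorry

theorem le_add_of_norm_sub_le {a b : U} (ha : IsSelfAdjoint a) (hb : IsSelfAdjoint b) {e : ℝ}
    (h : ‖a - b‖ ≤ e) : a ≤ b + algebraMap ℝ U e := by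
  sorry

theorem ramp_mul_cut {a : U} (ha : IsSelfAdjoint a) {e l : ℝ} (he : 0 < e) (hl : 2 * e ≤ l) :
    cfc (ramp e) a * cfc (cut l) a = cfc (cut l) a := by
  sorry

theorem ramp_mul_ramp {a : U} (ha : IsSelfAdjoint a) {e l : ℝ} (he : 0 < e) (hl : 2 * e ≤ l) :
    cfc (ramp e) a * cfc (ramp l) a = cfc (ramp l) a := by
  sorry

end Crest.Agent.R110B
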