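import Crest.Agent.R110B.Defs

set_option autoImplicit false

namespace Crest.Agent.R110B

variable {U : Type*} [CStarAlgebra U] [PartialOrder U] [StarOrderedRing U]

/-- `v = (m + η)^(-1/2) e^(1/2)`; the error is `η e^(1/2) (m + η)⁻¹ e^(1/2)`, of norm `≤ η`. -/
theorem rz {e m : U} (he : 0 ≤ e) (hem : e ≤ m) {θ : ℝ} (hθ : 0 < θ) :
    ∃ v : U, ‖star v * m * v - e‖ < θ := by
  sorry

/-- With `ι = cfc (fun t => (max t δ)⁻¹) (Y Y⋆)`, `M = Y⋆ ι`. -/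
theorem absorb (Y : U) {δ : ℝ} (hδ : 0 < δ) :
    ∃ M : U, 0 ≤ Y * M ∧ Y * M ≤ 1 ∧ ‖(1 - Y * M) * Y‖ ^ 2 ≤ δ ∧ δ * ‖M‖ ^ 2 ≤ 1 := by
  sorry

/-- With `ι = cfc (fun t => (max t δ)⁻¹) (y⋆ y)`, `M = ι y⋆`. -/
theorem modl (y : U) {δ : ℝ} (hδ : 0 < δ) :
    ∃ M : U, δ * ‖M‖ ^ 2 ≤ 1 ∧
      y * M * (y * cfc (cut δ) (star y * y)) = y * cfc (cut δ) (star y * y) := by
  sorry

end Crest.Agent.R110B
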