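import Crest.Agent.R110B.CfcB

set_option autoImplicit false

namespace Crest.Agent.R110B

variable {U : Type*} [CStarAlgebra U] [PartialOrder U] [StarOrderedRing U]

theorem norm_ramp_conj {n : U} (hn : 0 ≤ n) {e : ℝ} (he : 0 < e) :
    ‖cfc (ramp e) n * n * cfc (ramp e) n - n‖ ≤ 2 * e := by
  sorry

theorem norm_mul_one_sub_ramp (y : U) {e : ℝ} (he : 0 < e) :
    ‖y * (1 - cfc (ramp e) (star y * y))‖ ^ 2 ≤ 2 * e := by
  sorry

theorem norm_one_sub_ramp_mul (y : U) {e : ℝ} (he : 0 < e) :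
    ‖(1 - cfc (ramp e) (y * star y)) * y‖ ^ 2 ≤ 2 * e := by
  sorry

/-- `ramp e t = g t * t` with `|g| ≤ 1 / e` (`g t = ramp e t / max t e`). -/
theorem ramp_factor {a : U} (ha : IsSelfAdjoint a) {e : ℝ} (he : 0 < e) :
    ∃ g : U, cfc (ramp e) a = g * a ∧ cfc (ramp e) a = a * g ∧ ‖g‖ ≤ e⁻¹ := by
  sorry

/-- Compression by a contraction. -/
theorem star_mul_conj_le {q x : U} {K : ℝ} (hq : ‖q‖ ≤ K) :
    star (q * x) * (q * x) ≤ (K ^ 2) • (star x * x) := by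
  sorry

/-- Operator Cauchy-Schwarz for two terms. -/
theorem cs (X Y : U) {t : ℝ} (ht : 0 < t) :
    (X + Y) * star (X + Y) ≤ (1 + t) • (X * star X) + (1 + t⁻¹) • (Y * star Y) := by
  sorry

theorem norm_star_mul_self_sub (x y : U) :
    ‖star x * x - star y * y‖ ≤ (‖x‖ + ‖y‖) * ‖x - y‖ := by
  sorry

theorem norm_sq_le_of_approx {x d : U} {e : ℝ} (h : ‖star x * x - d‖ ≤ e) :
    ‖x‖ ^ 2 ≤ ‖d‖ + e := by
  sorry

/-- `X X⋆ ≤ c • σ⋆ σ` bounds the norm. -/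
theorem norm_sq_le_of_le {X σ : U} {c : ℝ} (hc : 0 ≤ c) (h : X * star X ≤ c • (star σ * σ)) :
    ‖X‖ ^ 2 ≤ c * ‖σ‖ ^ 2 := by
  sorry

end Crest.Agent.R110B
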