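import Crest.Agent.R110B.Ray

set_option autoImplicit false

namespace Crest.Agent.R110B

variable {U : Type*} [CStarAlgebra U] [PartialOrder U] [StarOrderedRing U]

variable {C : Amb U}

/-- Gluing two pieces on each side. `ray2` on the `B` side with
`S = ρ² - w⋆ (σ₁ σ₁⋆ + σ₂ σ₂⋆) w`, `c = ρ²`, `e = 2 ε'²`, which gives `‖σᵢ⋆ w τ‖ ≤ ρ ‖τ‖`; then on
the `A` side with `S = ρ'² - w τ τ⋆ w⋆`, `c = ρ'²`, `e = ρ² ‖τ‖²`. -/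
theorem glue4 (K : ℝ) {ε : ℝ} (hε : 0 < ε) : ∃ ε' : ℝ, 0 < ε' ∧
    ∀ (RA RB : RI C) (σ₁ σ₂ τ₁ τ₂ w : U), σ₁ ∈ RA.carrier → σ₂ ∈ RA.carrier →
      τ₁ ∈ RB.carrier → τ₂ ∈ RB.carrier → ‖σ₁‖ ≤ K → ‖σ₂‖ ≤ K → ‖τ₁‖ ≤ K → ‖τ₂‖ ≤ K →
      ‖star σ₁ * w * τ₁‖ ≤ ε' → ‖star σ₁ * w * τ₂‖ ≤ ε' →
      ‖star σ₂ * w * τ₁‖ ≤ ε' → ‖star σ₂ * w * τ₂‖ ≤ ε' →
      ∃ σ ∈ RA.carrier, ∃ τ ∈ RB.carrier,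
        ‖star σ * σ - (star σ₁ * σ₁ + star σ₂ * σ₂)‖ < ε ∧
        ‖star τ * τ - (star τ₁ * τ₁ + star τ₂ * τ₂)‖ < ε ∧ ‖star σ * w * τ‖ < ε := by
  sorry

end Crest.Agent.R110B
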