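import Crest.Agent.R110B.OSA
import Crest.Agent.R110B.Glue

set_option autoImplicit false

namespace Crest.Agent.R110B

variable {U : Type*} [CStarAlgebra U] [PartialOrder U] [StarOrderedRing U]

variable {C : Amb U}

/-- One-sided scheme. `ε'` from `glue4 (K + 1) (ε / 2)`, then `δ` small, then `η`. With `y = q β`,
`z = w β`, `E = z - y` (`σ₀⋆ E = 0`, `‖y⋆ E‖ ≤ η`), `Y = y t₂`, `v = Y M = M⋆ Y⋆`; pieces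
`σ' = (1 - v) σ₀`, `X = y tX` in `RA`, `τ₂ = β t₂`, `τr = β (1 - χ) τ₁` in `RB`;
`w τ₂ = z t₂`, `w τr = z (1 - χ) τ₁`, `σ'⋆ z = σ₀⋆ (1 - v) y - σ₀⋆ M⋆ t₂⋆ (y⋆ E)`,
`X⋆ z = X⋆ y + tX⋆ (y⋆ E)`, `‖y (1 - χ)‖² ≤ 4 δ`, `‖Y‖ ≤ K ‖τ₂‖`. -/
theorem os (K : ℝ) {ε : ℝ} (hε : 0 < ε) : ∃ η : ℝ, 0 < η ∧
    ∀ (RA RB : RI C) (σ₀ τ₁ β w q : U), σ₀ ∈ RA.carrier → β ∈ RB.carrier → 0 ≤ β → β ≤ 1 →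
      β * τ₁ = τ₁ → q * β ∈ RA.carrier → ‖σ₀‖ ≤ K → ‖τ₁‖ ≤ K → ‖q‖ ≤ K →
      star σ₀ * (w * β) = star σ₀ * (q * β) → ‖star (q * β) * (w * β - q * β)‖ ≤ η →
      ∃ σ ∈ RA.carrier, ∃ τ ∈ RB.carrier, ‖star σ * σ - star σ₀ * σ₀‖ < ε ∧
        ‖star τ * τ - star τ₁ * τ₁‖ < ε ∧ ‖star σ * w * τ‖ < ε := by
  sorry

end Crest.Agent.R110B
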