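import Crest.Agent.R110B.ProjA
import Crest.Agent.R110B.OSB

set_option autoImplicit false

namespace Crest.Agent.R110B

variable {U : Type*} [CStarAlgebra U] [PartialOrder U] [StarOrderedRing U]

variable {C : Amb U}

/-- Containment case. `proj` gives `σ₀, J`; `d'' = cut ε₁ d' ∈ N J ∩ N RB`; `τ₀ ∈ RB` with
`τ₀⋆τ₀ ≈ d''`, `τ' = τ₀ * ramp θ d'' ∈ RB ∩ I J`, `b = τ' τ'⋆`, `β = ramp (θ / 2) b ∈ RB ∩ I J`,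
`τ₁ = ramp θ b * τ'`; `os` with `K = ‖σ₀‖ + ‖τ₁‖ + 10 ‖w‖`, `z = w β ∈ I J`, `q = p w`:
`(q β)⋆ (w β - q β) = z⋆ (p - p p) z`. -/
theorem cont {RA RB : RI C} {d d' : U} (hd : d ∈ N RA) (hd' : d' ∈ N RB) (hc : d' ∈ N RA) (w : U)
    {ε : ℝ} (hε : 0 < ε) :
    ∃ σ ∈ RA.carrier, ∃ τ ∈ RB.carrier, ‖star σ * σ - d‖ < ε ∧ ‖star τ * τ - d'‖ < ε ∧
      ‖star σ * w * τ‖ < ε := by
  sorry

end Crest.Agent.R110B
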