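import Mathlib
import Crest.Prelude.Def_PurelyInfinite

/-!
Row 110 (S0145), design B: closed right ideals `R` inside an ambient closed two-sided ideal all of
whose positive elements are properly infinite; `N R` is the closure of `{σ⋆ σ | σ ∈ R}` and
`I R = {x | x⋆ x ∈ N R}` is the closed two-sided ideal generated by `R`.
-/

set_option autoImplicit false

namespace Crest.Agent.R110B

variable {U : Type*} [CStarAlgebra U] [PartialOrder U]

/-- Proper infiniteness, witnesses in `U`. -/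
def PI (h : U) : Prop :=
  ∀ ε : ℝ, 0 < ε → ∃ r s : U,
    ‖star r * h * r - h‖ < ε ∧ ‖star s * h * s - h‖ < ε ∧ ‖star r * h * s‖ < ε

/-- A closed two-sided ideal all of whose positive elements are properly infinite. -/
structure Amb (U : Type*) [CStarAlgebra U] [PartialOrder U] where
  carrier : Set U
  zero_mem : (0 : U) ∈ carrier
  add_mem : ∀ {x y : U}, x ∈ carrier → y ∈ carrier → x + y ∈ carrier
  mul_right : ∀ {x : U} (y : U), x ∈ carrier → x * y ∈ carrier
  mul_left : ∀ {x : U} (y : U), x ∈ carrier → y * x ∈ carrier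
  closed : IsClosed carrier
  pi : ∀ k ∈ carrier, 0 ≤ k → PI k

/-- A closed right ideal inside the ambient ideal. -/
structure RI (C : Amb U) where
  carrier : Set U
  sub : carrier ⊆ C.carrier
  zero_mem : (0 : U) ∈ carrier
  add_mem : ∀ {x y : U}, x ∈ carrier → y ∈ carrier → x + y ∈ carrier
  mul_mem : ∀ {x : U} (y : U), x ∈ carrier → x * y ∈ carrier
  closed : IsClosed carrier

variable {C : Amb U}

/-- The closed right ideal generated by `x` (intersected with the ambient ideal). -/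
def gen (C : Amb U) (x : U) : RI C where
  carrier := {y | y ∈ C.carrier ∧ y ∈ closure (Set.range fun r : U => x * r)}
  sub := fun _ h => h.1
  zero_mem := ⟨C.zero_mem, subset_closure ⟨0, by simp⟩⟩
  add_mem := by
    rintro a b ⟨ha, ha'⟩ ⟨hb, hb'⟩
    refine ⟨C.add_mem ha hb, ?_⟩
    refine map_mem_closure₂ (f := fun a b : U => a + b) continuous_add ha' hb' ?_
    rintro _ ⟨r, rfl⟩ _ ⟨s, rfl⟩
    exact ⟨r + s, by simp [mul_add]⟩
  mul_mem := by
    rintro a b ⟨ha, ha'⟩
    refine ⟨C.mul_right b ha, ?_⟩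
    refine map_mem_closure (f := fun a : U => a * b) (by fun_prop) ha' ?_
    rintro _ ⟨r, rfl⟩
    exact ⟨r * b, by simp [mul_assoc]⟩
  closed := C.closed.inter isClosed_closure

/-- `N R`: the closure of the set of `σ⋆ σ`, `σ ∈ R`. -/
def N (R : RI C) : Set U := closure {n | ∃ σ ∈ R.carrier, n = star σ * σ}

/-- `I R`: the closed two-sided ideal generated by `R`. -/
def I (R : RI C) : Set U := {x | star x * x ∈ N R}

/-- `(t - e)₊`. -/
noncomputable def cut (e : ℝ) (t : ℝ) : ℝ := max (t - e) 0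

/-- The ramp: `0` below `e`, `1` above `2 e`. -/
noncomputable def ramp (e : ℝ) (t : ℝ) : ℝ := max (min (t / e - 1) 1) 0

@[fun_prop] lemma continuous_cut (e : ℝ) : Continuous (cut e) := by unfold cut; fun_prop

@[fun_prop] lemma continuous_ramp (e : ℝ) : Continuous (ramp e) := by unfold ramp; fun_prop

lemma RI.neg_mem (R : RI C) {x : U} (hx : x ∈ R.carrier) : -x ∈ R.carrier := by
  simpa using R.mul_mem (-1) hx

lemma RI.sub_mem (R : RI C) {x y : U} (hx : x ∈ R.carrier) (hy : y ∈ R.carrier) :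
    x - y ∈ R.carrier := by
  rw [sub_eq_add_neg]; exact R.add_mem hx (R.neg_mem hy)

lemma RI.smul_mem (R : RI C) (c : ℝ) {x : U} (hx : x ∈ R.carrier) : c • x ∈ R.carrier := by
  have := R.mul_mem (c • (1 : U)) hx
  simpa using this

lemma mem_gen {x : U} (hx : x ∈ C.carrier) (r : U) : x * r ∈ (gen C x).carrier :=
  ⟨C.mul_right r hx, subset_closure ⟨r, rfl⟩⟩

lemma self_mem_gen {x : U} (hx : x ∈ C.carrier) : x ∈ (gen C x).carrier := by
  simpa using mem_gen hx 1

lemma gen_le {R : RI C} {x : U} (hx : x ∈ R.carrier) : (gen C x).carrier ⊆ R.carrier := by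
  rintro y ⟨-, hy⟩
  refine closure_minimal ?_ R.closed hy
  rintro _ ⟨r, rfl⟩
  exact R.mul_mem r hx

/-- A left relation that holds on the generator holds on `gen`. -/
lemma mul_eq_of_gen {x a b y : U} (h : a * x = b * x) (hy : y ∈ (gen C x).carrier) :
    a * y = b * y := by
  have : IsClosed {y : U | a * y = b * y} := isClosed_eq (by fun_prop) (by fun_prop)
  refine closure_minimal ?_ this hy.2
  rintro _ ⟨r, rfl⟩
  simp only [Set.mem_ofPred_eq, ← mul_assoc, h]

lemma star_mul_self_mem_N {R : RI C} {σ : U} (h : σ ∈ R.carrier) : star σ * σ ∈ N R :=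
  subset_closure ⟨σ, h, rfl⟩

lemma mem_I_of_mem {R : RI C} {σ : U} (h : σ ∈ R.carrier) : σ ∈ I R := star_mul_self_mem_N h

lemma isClosed_N (R : RI C) : IsClosed (N R) := isClosed_closure

lemma N_mono {R R' : RI C} (h : R.carrier ⊆ R'.carrier) : N R ⊆ N R' :=
  closure_mono fun _ ⟨σ, hσ, e⟩ => ⟨σ, h hσ, e⟩

/-- Transitivity: a right ideal inside `I R` has its `N` inside `N R`. -/
lemma N_sub_of_sub_I {R R' : RI C} (h : R'.carrier ⊆ I R) : N R' ⊆ N R := by
  refine closure_minimal ?_ (isClosed_N R)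
  rintro _ ⟨σ, hσ, rfl⟩
  exact h hσ

lemma exists_of_mem_N {R : RI C} {n : U} (hn : n ∈ N R) {ε : ℝ} (hε : 0 < ε) :
    ∃ σ ∈ R.carrier, ‖star σ * σ - n‖ < ε := by
  obtain ⟨m, ⟨σ, hσ, rfl⟩, h⟩ := Metric.mem_closure_iff.1 hn ε hε
  exact ⟨σ, hσ, by rwa [dist_comm, dist_eq_norm] at h⟩

lemma mem_N_of_approx {R : RI C} {n : U}
    (h : ∀ ε : ℝ, 0 < ε → ∃ m ∈ N R, ‖m - n‖ < ε) : n ∈ N R := by
  rw [← (isClosed_N R).closure_eq]
  refine Metric.mem_closure_iff.2 fun ε hε => ?_
  obtain ⟨m, hm, h'⟩ := h ε hε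
  exact ⟨m, hm, by rwa [dist_comm, dist_eq_norm]⟩

lemma N_sub_amb {R : RI C} {n : U} (hn : n ∈ N R) : n ∈ C.carrier := by
  refine closure_minimal ?_ C.closed hn
  rintro _ ⟨σ, hσ, rfl⟩
  exact C.mul_left _ (R.sub hσ)

end Crest.Agent.R110B
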