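import Crest.Agent.R110B.Iter

set_option autoImplicit false

namespace Crest.Agent.R110B

variable {U : Type*} [CStarAlgebra U] [PartialOrder U] [StarOrderedRing U]

variable {C : Amb U}

/-- One side of the final conversion: `R = gen C (cut l a)`, `d = ramp l a`,
`ι = cfc (fun t => (√(max t l))⁻¹) a`, `r = cfc √ a`; `ι a ι σ = σ` on `R`, so
`(ι σ r)⋆ a (ι σ r) = r (σ⋆σ) r ≈ r d r ≈ a`. -/
theorem side {a : U} (ha : a ∈ C.carrier) (h0 : 0 ≤ a) {ε : ℝ} (hε : 0 < ε) :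
    ∃ (R : RI C) (d ι r : U) (θ : ℝ), d ∈ N R ∧ ‖d‖ ≤ 1 ∧ 0 < θ ∧
      ∀ σ ∈ R.carrier, ‖star σ * σ - d‖ < θ →
        ‖star (ι * σ * r) * a * (ι * σ * r) - a‖ < ε := by
  sorry

theorem final {a b : U} (ha : a ∈ C.carrier) (hb : b ∈ C.carrier) (ha0 : 0 ≤ a) (hb0 : 0 ≤ b)
    (c : U) {ε : ℝ} (hε : 0 < ε) :
    ∃ s ∈ C.carrier, ∃ t ∈ C.carrier, ‖star s * a * s - a‖ < ε ∧ ‖star t * b * t - b‖ < ε ∧
      ‖star s * c * t‖ < ε := by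
  sorry

end Crest.Agent.R110B
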