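import Crest.Agent.R110B.Nc

set_option autoImplicit false

namespace Crest.Agent.R110B

variable {U : Type*} [CStarAlgebra U] [PartialOrder U] [StarOrderedRing U]

variable {C : Amb U} {R : RI C}

/-- With `G = cfc (fun t => max (g t - e) 0) a`: `G * (cfc g a - e) * G = G ^ 3 ≤ G j G`, so
`G ^ 3`, `G ^ 4 ≤ ‖G‖ G ^ 3`, `G ^ 2`, `G` lie in `N R`, and `cfc f a ≤ K • G`. -/
theorem N_cfc {a j : U} (ha : IsSelfAdjoint a) (hj : j ∈ N R) {f g : ℝ → ℝ} (hf : Continuous f)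
    (hg : Continuous g) {e K : ℝ} (hle : cfc g a ≤ j + algebraMap ℝ U e)
    (hf0 : ∀ t ∈ spectrum ℝ a, 0 ≤ f t) (hfg : ∀ t ∈ spectrum ℝ a, f t ≤ K * max (g t - e) 0) :
    cfc f a ∈ N R := by
  sorry

theorem N_cut {n j : U} (hn : IsSelfAdjoint n) (hj : j ∈ N R) {e : ℝ}
    (hle : n ≤ j + algebraMap ℝ U e) : cfc (cut e) n ∈ N R := by
  sorry

theorem N_ramp {n : U} (hn : IsSelfAdjoint n) {e : ℝ} (he : 0 < e) (h : cfc (cut e) n ∈ N R) :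
    cfc (ramp e) n ∈ N R := by
  sorry

/-- `x⋆ (x x⋆ - l) x ≤ x⋆ (x x⋆ - l)₊ x`; `N_cfc` with `g t = t ^ 2 - l t`, `K = l⁻¹`. -/
theorem flip {x : U} {l : ℝ} (hl : 0 < l) (h : cfc (cut l) (x * star x) ∈ N R) :
    cfc (cut l) (star x * x) ∈ N R := by
  sorry

end Crest.Agent.R110B
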