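import Crest.Agent.R110B.Ic

set_option autoImplicit false

namespace Crest.Agent.R110B

variable {U : Type*} [CStarAlgebra U] [PartialOrder U] [StarOrderedRing U]

variable {C : Amb U} {R : RI C}

theorem isClosed_I (R : RI C) : IsClosed (I R) := by
  sorry

theorem I_mul_right {x : U} (hx : x ∈ I R) (y : U) : x * y ∈ I R := by
  sorry

theorem I_mul_left {x : U} (hx : x ∈ I R) (y : U) : y * x ∈ I R := by
  sorry

theorem I_add {x y : U} (hx : x ∈ I R) (hy : y ∈ I R) : x + y ∈ I R := by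
  sorry

theorem I_sub {x y : U} (hx : x ∈ I R) (hy : y ∈ I R) : x - y ∈ I R := by
  sorry

theorem I_star {x : U} (hx : x ∈ I R) : star x ∈ I R := by
  sorry

theorem mem_N_of_I {n : U} (h0 : 0 ≤ n) (hn : n ∈ I R) : n ∈ N R := by
  sorry

theorem mem_I_of_N {n : U} (hn : n ∈ N R) : n ∈ I R := by
  sorry

theorem I_cfc {a : U} (ha : IsSelfAdjoint a) (h : a ∈ I R) {f : ℝ → ℝ} (hf : Continuous f)
    (h0 : f 0 = 0) : cfc f a ∈ I R := by
  sorry

theorem RI_cfc {a : U} (ha : IsSelfAdjoint a) (h : a ∈ R.carrier) {f : ℝ → ℝ} (hf : Continuous f)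
    (h0 : f 0 = 0) : cfc f a ∈ R.carrier := by
  sorry

theorem Amb_cfc {a : U} (ha : IsSelfAdjoint a) (h : a ∈ C.carrier) {f : ℝ → ℝ} (hf : Continuous f)
    (h0 : f 0 = 0) : cfc f a ∈ C.carrier := by
  sorry

theorem gen_sub_I {x : U} (hx : x ∈ I R) : (gen C x).carrier ⊆ I R := by
  sorry

theorem N_gen_sub {x : U} (hx : x ∈ I R) : N (gen C x) ⊆ N R :=
  N_sub_of_sub_I (gen_sub_I hx)

/-- A self-adjoint element of the ideal is dominated by an element of `N R` (its positive part). -/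
theorem exists_N_ge {j : U} (hj : IsSelfAdjoint j) (h : j ∈ I R) : ∃ m ∈ N R, j ≤ m := by
  sorry

theorem mem_N_gen_self {x : U} (hx : x ∈ C.carrier) (h0 : 0 ≤ x) : x ∈ N (gen C x) := by
  sorry

theorem exists_gen {x n : U} (hn : n ∈ N (gen C x)) {ε : ℝ} (hε : 0 < ε) :
    ∃ r : U, ‖star (x * r) * (x * r) - n‖ < ε := by
  sorry

/-- Removing a part that lies in the ideal: for a contraction `q` with `x - q x ∈ I R`. -/
theorem defect_mem_N {x x' : U} (hle : star x' * x' ≤ star x * x) (h : x - x' ∈ I R) :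
    star x * x - star x' * x' ∈ N R := by
  sorry

end Crest.Agent.R110B
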