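import Crest.Agent.R110B.Red

set_option autoImplicit false

namespace Crest.Agent.R110B

variable {U : Type*} [CStarAlgebra U] [PartialOrder U] [StarOrderedRing U]

variable {C : Amb U}

/-- Induction on `n`. Step: `g = ramp θ d ∈ N RA`, `red` gives `σ₁, τ₁` for `g, g'`; the induction
hypothesis for `gen C (cut (2 θ) d)` (on which `g` acts as the identity), target `cut (2 θ) d`, and
`w₁ = σ₁⋆ w τ₁` gives `σ₂, τ₂`; `σ = σ₁ σ₂`, `τ = τ₁ τ₂`. -/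
theorem iter (n : ℕ) : ∀ (RA RB : RI C) (d d' w : U), d ∈ N RA → d' ∈ N RB → ‖d‖ ≤ 1 → ‖d'‖ ≤ 1 →
    ∀ ε : ℝ, 0 < ε → ∃ σ ∈ RA.carrier, ∃ τ ∈ RB.carrier, ‖star σ * σ - d‖ < ε ∧
      ‖star τ * τ - d'‖ < ε ∧ ‖star σ * w * τ‖ ≤ (9 / 10) ^ n * ‖w‖ + ε := by
  sorry

theorem main {RA RB : RI C} {d d' : U} (hd : d ∈ N RA) (hd' : d' ∈ N RB) (hd1 : ‖d‖ ≤ 1)
    (hd1' : ‖d'‖ ≤ 1) (w : U) {ε : ℝ} (hε : 0 < ε) :
    ∃ σ ∈ RA.carrier, ∃ τ ∈ RB.carrier, ‖star σ * σ - d‖ < ε ∧ ‖star τ * τ - d'‖ < ε ∧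
      ‖star σ * w * τ‖ < ε := by
  sorry

end Crest.Agent.R110B
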