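import Crest.Agent.R110B.CfcA
import Crest.Agent.R110B.CfcB
import Crest.Agent.R110B.CfcC
import Crest.Agent.R110B.CfcD

set_option autoImplicit false

namespace Crest.Agent.R110B

variable {U : Type*} [CStarAlgebra U] [PartialOrder U] [StarOrderedRing U]

variable {C : Amb U} {R : RI C}

theorem N_nonneg {n : U} (hn : n ∈ N R) : 0 ≤ n := by
  sorry

theorem N_conj {n : U} (hn : n ∈ N R) (r : U) : star r * n * r ∈ N R := by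
  sorry

theorem N_smul {n : U} (hn : n ∈ N R) {c : ℝ} (hc : 0 ≤ c) : c • n ∈ N R := by
  sorry

/-- By `rz`, `N_conj`, `mem_N_of_approx`. -/
theorem N_hered {e n : U} (he : 0 ≤ e) (hen : e ≤ n) (hn : n ∈ N R) : e ∈ N R := by
  sorry

/-- Approximate twins. `k = σ₁ σ₁⋆ + σ₂ σ₂⋆ ∈ R`, `k vᵢ ≈ σᵢ` (`ap`), then `PI (k * k)` gives
`r, s`, and `ξ₁ = k r v₁`, `ξ₂ = k s v₂`. -/
theorem twins {σ₁ σ₂ : U} (h₁ : σ₁ ∈ R.carrier) (h₂ : σ₂ ∈ R.carrier) {η : ℝ} (hη : 0 < η) :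
    ∃ ξ₁ ∈ R.carrier, ∃ ξ₂ ∈ R.carrier, ‖star ξ₁ * ξ₁ - star σ₁ * σ₁‖ < η ∧
      ‖star ξ₂ * ξ₂ - star σ₂ * σ₂‖ < η ∧ ‖star ξ₁ * ξ₂‖ < η := by
  sorry

theorem N_add {m n : U} (hm : m ∈ N R) (hn : n ∈ N R) : m + n ∈ N R := by
  sorry

/-- Conjugate `n * n` by `cfc (fun t => (√(max t 0 + η))⁻¹) n`. -/
theorem N_of_sq {n : U} (h0 : 0 ≤ n) (hn : n * n ∈ N R) : n ∈ N R := by
  sorry

end Crest.Agent.R110B
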