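import Crest.Agent.R110B.Orth

set_option autoImplicit false

namespace Crest.Agent.R110B

variable {U : Type*} [CStarAlgebra U] [PartialOrder U] [StarOrderedRing U]

variable {C : Amb U}

/-- The pieces of the one-sided scheme. `H = y⋆ y`, `k = cut δ H`, `R' = gen C (y k) ⊆ RA`; `M₀` from
`modl`, so `y (M₀ ξ) = ξ` on `R'` (`mul_eq_of_gen`). `orth` in `R'` for `(y k)⋆ (y k) = cfc g H`,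
`g t = t (t - δ)₊²`, tolerance `δ ^ 3`, gives `ξ₁ ⊥ ξ₂`; `χ = ramp (2 δ) H ∈ N (gen C ξᵢ)` by `N_cfc`
(`K = (δ ^ 3)⁻¹`, `e = δ ^ 3`). `n₂ = τ₁⋆τ₁ - τr⋆τr ∈ N (gen C ξᵢ)` (`defect_mem_N`,
`τ₁ - τr = β χ τ₁`). `ξ₂ = q (β M₀ ξ₂)` gives `ξ₂ ∈ I (gen C (β M₀ ξ₂))`, so `exists_gen` gives `r`;
`t₂ = M₀ ξ₂ r u`, `u = ramp θ' n₂ ∈ I (gen C ξ₁)`. `M` from `absorb (y t₂)`; the defect `n₁` lies in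
`N (gen C ξ₁)`, `exists_gen` gives `r₁`, `tX = M₀ ξ₁ r₁`. -/
theorem os_pieces {RA RB : RI C} (σ₀ : U) {τ₁ β q y : U} (hβ : β ∈ RB.carrier) (hβ0 : 0 ≤ β)
    (hβ1 : β ≤ 1) (hβτ : β * τ₁ = τ₁) (hyq : y = q * β) (hy : y ∈ RA.carrier) {δ θ : ℝ}
    (hδ : 0 < δ) (hθ : 0 < θ) :
    ∃ t₂ tX M : U,
      ‖star (β * t₂) * (β * t₂) - (star τ₁ * τ₁ -
        star (β * (1 - cfc (ramp (2 * δ)) (star y * y)) * τ₁) *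
          (β * (1 - cfc (ramp (2 * δ)) (star y * y)) * τ₁))‖ < θ ∧
      δ * ‖t₂‖ ^ 2 ≤ ‖y * t₂‖ ^ 2 ∧ δ * ‖tX‖ ^ 2 ≤ ‖y * tX‖ ^ 2 ∧
      0 ≤ y * t₂ * M ∧ y * t₂ * M ≤ 1 ∧ ‖(1 - y * t₂ * M) * (y * t₂)‖ ^ 2 ≤ δ ∧ δ * ‖M‖ ^ 2 ≤ 1 ∧
      star (y * tX) * (y * t₂) = 0 ∧
      ‖star (y * tX) * (y * tX) - (star σ₀ * σ₀ -
        star ((1 - y * t₂ * M) * σ₀) * ((1 - y * t₂ * M) * σ₀))‖ < θ := by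
  sorry

end Crest.Agent.R110B
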