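import Crest.Agent.R110B.Id

set_option autoImplicit false

namespace Crest.Agent.R110B

variable {U : Type*} [CStarAlgebra U] [PartialOrder U] [StarOrderedRing U]

variable {C : Amb U} {R : RI C}

/-- Exact orthogonal copies. Take `σ ∈ R` with `σ⋆σ ≈ d`, twins `ξ₁, ξ₂` of `(σ, σ)` with a tiny
tolerance, `P = ξ₁ ξ₁⋆`, and cut: `ramp (2 e) P * ξ₁`, `(1 - ramp e P) * ξ₂`
(`ramp_mul_ramp`, `norm_one_sub_ramp_mul`, `ramp_factor`, `norm_star_mul_self_sub`). -/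
theorem orth {d : U} (hd : d ∈ N R) {η : ℝ} (hη : 0 < η) :
    ∃ ξ₁ ∈ R.carrier, ∃ ξ₂ ∈ R.carrier, star ξ₁ * ξ₂ = 0 ∧
      ‖star ξ₁ * ξ₁ - d‖ < η ∧ ‖star ξ₂ * ξ₂ - d‖ < η := by
  sorry

end Crest.Agent.R110B
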