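import Crest.Agent.R110B.Defs

set_option autoImplicit false

namespace Crest.Agent.R110B

variable {U : Type*} [CStarAlgebra U] [PartialOrder U] [StarOrderedRing U]

/-- The approximate projection. First `h (h x) = h x`, hence `s h x = 0` (C⋆-identity), so
`s x = h₂ x`; also `h₂ h = 0`, `h₂ s = h₂`, `h₂ x⋆ = 0`, `x⋆ (h + h₂) = x⋆`, `x⋆ s = x⋆ h₂`. -/
theorem p_id {h h₂ x s κ : U} (hh : IsSelfAdjoint h) (hh₂ : IsSelfAdjoint h₂)
    (hs : IsSelfAdjoint s) (ss : s * s = 1 - h) (sh : s * h = h * s) (sh₂ : s * h₂ = h₂)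
    (h0 : h * h₂ = 0) (hx : (h + h₂) * x = x) (xh₂ : x * h₂ = 0) (xx : star x * x = h + κ) :
    (h + h₂ - x * star x + x * s + s * star x) -
        (h + h₂ - x * star x + x * s + s * star x) * (h + h₂ - x * star x + x * s + s * star x) =
      h₂ - h₂ * h₂ - (x - s) * κ * star (x - s) := by
  sorry

end Crest.Agent.R110B
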