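import Crest.Agent.R110B.ProjB

set_option autoImplicit false

namespace Crest.Agent.R110B

variable {U : Type*} [CStarAlgebra U] [PartialOrder U] [StarOrderedRing U]

variable {C : Amb U}

/-- `k = d + e`, `l = ε / 10`; `orth` gives `ξ₁ ⊥ ξ₂` within `l` of `k`;
`Rtop = gen C (cut (6 l) (ξ₁ ξ₁⋆)) ⊆ RA`, on which `ramp (3 l) (ξ₁ ξ₁⋆)` acts as the identity
(`ramp_mul_cut`, `mul_eq_of_gen`); `cut (7 l) k ∈ N Rtop` (`mem_N_gen_self`, `flip`, `N_cut`);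
`orth` in `Rtop` gives `ζ₀ ⊥ ζ₁` within `l` of it; `cut (8 l) d ∈ N (gen C ζ₀)` gives `σ₀`;
`J = gen C ζ₁`; then `projB`. -/
theorem proj {RA : RI C} {d e : U} (hd : d ∈ N RA) (he : e ∈ N RA) {ε : ℝ} (hε : 0 < ε) :
    ∃ σ₀ ∈ RA.carrier, ∃ J : RI C, ‖star σ₀ * σ₀ - d‖ < ε ∧ cfc (cut ε) e ∈ N J ∧
      ∀ z ∈ I J, ∀ η : ℝ, 0 < η →
        ∃ p ∈ RA.carrier, IsSelfAdjoint p ∧ ‖p‖ ≤ 10 ∧ p * σ₀ = σ₀ ∧ ‖(p - p * p) * z‖ ≤ η := by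
  sorry

end Crest.Agent.R110B
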