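import Crest.Agent.R110B.Orth
import Crest.Agent.R110B.PId

set_option autoImplicit false

namespace Crest.Agent.R110B

variable {U : Type*} [CStarAlgebra U] [PartialOrder U] [StarOrderedRing U]

variable {C : Amb U}

namespace ProjBX

lemma orth_cfc {a b : U} (ha : IsSelfAdjoint a) (hb : IsSelfAdjoint b) (hab : a * b = 0)
    {f f' : ℝ → ℝ} (hf : Continuous f) (hf' : Continuous f') (h0 : f' 0 = 0) :
    cfc f a * cfc f' b = f 0 • cfc f' b := by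
  have hba : b * a = 0 := by
    have := congrArg star hab
    simpa [star_mul, ha.star_eq, hb.star_eq] using this
  have h1 : cfc f' b * a = 0 := by
    rw [cfc_mul_of_mul_eq_zero hb hba hf', h0, zero_smul]
  have hs : IsSelfAdjoint (cfc f' b) := cfc_predicate f' b
  have h2 : a * cfc f' b = 0 := by
    have := congrArg star h1
    simpa [star_mul, ha.star_eq, hs.star_eq] using this
  exact cfc_mul_of_mul_eq_zero ha h2 hf

/-- The room. -/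
def room {C : Amb U} (RA : RI C) (H σ : U) : RI C where
  carrier := {ρ | ρ ∈ RA.carrier ∧ H * ρ = ρ ∧ star σ * ρ = 0}
  sub := fun _ h => RA.sub h.1
  zero_mem := ⟨RA.zero_mem, by simp, by simp⟩
  add_mem := by
    rintro x y ⟨hx, hx1, hx2⟩ ⟨hy, hy1, hy2⟩
    exact ⟨RA.add_mem hx hy, by rw [mul_add, hx1, hy1], by rw [mul_add, hx2, hy2, add_zero]⟩
  mul_mem := by
    rintro x y ⟨hx, hx1, hx2⟩
    exact ⟨RA.mul_mem y hx, by rw [← mul_assoc, hx1], by rw [← mul_assoc, hx2, zero_mul]⟩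
  closed := RA.closed.inter ((isClosed_eq (by fun_prop) (by fun_prop)).inter
    (isClosed_eq (by fun_prop) (by fun_prop)))

lemma norm_one_sub_le {u : U} (h0 : 0 ≤ u) (h1 : u ≤ 1) : ‖1 - u‖ ≤ 1 :=
  norm_le_one_of (sub_nonneg.2 h1) (sub_le_self _ h0)

end ProjBX

open ProjBX in
/-- `a₁ = ξ₁ ξ₁⋆`, `h = ramp (3 l) a₁`, `g = ramp (3 l / 2) a₁`, `s = cfc (√(1 - ramp (3 l) ·)) a₁`.
`u = Y M` from `absorb (Y = ξ₂⋆ z)`, `u ∈ I (gen C ζ)`; `ξ' = ξ₂ (1 - u)`, `c = ξ' ξ'⋆`,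
`h₂ = ramp (l / 2) c` (`ramp_factor`: `‖h₂ z‖` small). `Room = {ρ ∈ RA | (h + h₂) ρ = ρ, σ₀⋆ ρ = 0}`
is an `RI C` containing `ζ` and `cut l c`; `ξ₂⋆ξ₂ - ξ'⋆ξ' ≤ m ∈ N Room` (`exists_N_ge`),
`cut l (ξ'⋆ξ') ∈ N Room` (`flip`), so `ξ₁⋆ξ₁ ≤ cut l (ξ'⋆ξ') + m + 3 l`, `N_cut`, `flip`, `N_ramp`
give `h ∈ N Room`. Take `x₀ ∈ Room`, `x₀⋆x₀ ≈ h`, `x = x₀ g`, `κ = x⋆x - h`, and `p_id`;
`s x⋆ = g s x₀⋆ ∈ RA`. Products with `c` vanish by `cfc_mul_of_mul_eq_zero`. -/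
theorem projB {RA : RI C} {ξ₁ ξ₂ k σ₀ ζ : U} (h₁ : ξ₁ ∈ RA.carrier) (h₂ : ξ₂ ∈ RA.carrier)
    (h12 : star ξ₁ * ξ₂ = 0) (hk : IsSelfAdjoint k) {l : ℝ} (hl : 0 < l)
    (k₁ : ‖star ξ₁ * ξ₁ - k‖ ≤ l) (k₂ : ‖star ξ₂ * ξ₂ - k‖ ≤ l) (hζ : ζ ∈ RA.carrier)
    (hσ : cfc (ramp (3 * l)) (ξ₁ * star ξ₁) * σ₀ = σ₀)
    (hζ' : cfc (ramp (3 * l)) (ξ₁ * star ξ₁) * ζ = ζ) (hσζ : star σ₀ * ζ = 0)
    {z : U} (hz : z ∈ I (gen C ζ)) {η : ℝ} (hη : 0 < η) :
    ∃ p ∈ RA.carrier, IsSelfAdjoint p ∧ ‖p‖ ≤ 10 ∧ p * σ₀ = σ₀ ∧ ‖(p - p * p) * z‖ ≤ η := by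
  have ha₁ : IsSelfAdjoint (ξ₁ * star ξ₁) := IsSelfAdjoint.mul_star_self ξ₁
  have ha₁R : ξ₁ * star ξ₁ ∈ RA.carrier := RA.mul_mem _ h₁
  set a₁ := ξ₁ * star ξ₁ with ha₁def
  set h := cfc (ramp (3 * l)) a₁ with hh
  have l3 : 0 < 3 * l := by positivity
  have l32 : 0 < 3 * l / 2 := by positivity
  have l2 : 0 < l / 2 := by positivity
  have hr0 : ramp (3 * l) 0 = 0 := ramp_eq_zero l3 l3.le
  obtain ⟨g, hg⟩ : ∃ g, g = cfc (ramp (3 * l / 2)) a₁ := ⟨_, rfl⟩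
  obtain ⟨s, hsd⟩ : ∃ s, s = cfc (fun t => √(1 - ramp (3 * l) t)) a₁ := ⟨_, rfl⟩
  have hsc : Continuous fun t => √(1 - ramp (3 * l) t) := by fun_prop
  have hhs : IsSelfAdjoint h := cfc_predicate _ _
  have hgs : IsSelfAdjoint g := hg ▸ cfc_predicate _ _
  have hss : IsSelfAdjoint s := hsd ▸ cfc_predicate _ _
  have hh1 : ‖h‖ ≤ 1 := norm_le_one_of (cfc_ramp_nonneg _ _) (cfc_ramp_le_one _ _)
  have hg1 : ‖g‖ ≤ 1 := hg ▸ norm_le_one_of (cfc_ramp_nonneg _ _) (cfc_ramp_le_one _ _)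
  have hgR : g ∈ RA.carrier :=
    hg ▸ RI_cfc ha₁ ha₁R (continuous_ramp _) (ramp_eq_zero l32 l32.le)
  have hhR : h ∈ RA.carrier := RI_cfc ha₁ ha₁R (continuous_ramp _) hr0
  have gh : g * h = h := by
    rw [hg]; exact ramp_mul_ramp ha₁ l32 (by linarith)
  have hg' : h * g = h := by
    have := congrArg star gh
    simpa [star_mul, hgs.star_eq, hhs.star_eq] using this
  have ss : s * s = 1 - h := by
    rw [hsd, ← cfc_mul _ _ a₁, hh, ← cfc_one ℝ a₁, ← cfc_sub _ _ a₁]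
    refine cfc_congr fun t _ => ?_
    simp only [Pi.one_apply]
    exact Real.mul_self_sqrt (sub_nonneg.2 (ramp_le_one _ _))
  have sh : s * h = h * s := by
    rw [hsd, hh, ← cfc_mul _ _ a₁, ← cfc_mul _ _ a₁]
    exact cfc_congr fun t _ => mul_comm _ _
  have sg : s * g = g * s := by
    rw [hsd, hg, ← cfc_mul _ _ a₁, ← cfc_mul _ _ a₁]
    exact cfc_congr fun t _ => mul_comm _ _
  have hs1 : ‖s‖ ≤ 1 := by
    have h1 : ‖s‖ * ‖s‖ ≤ 1 := by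
      rw [← CStarRing.norm_star_mul_self, hss.star_eq, ss]
      exact norm_one_sub_le (cfc_ramp_nonneg _ _) (cfc_ramp_le_one _ _)
    nlinarith [norm_nonneg s]
  have sσ : s * σ₀ = 0 := by
    have h1 : star (s * σ₀) * (s * σ₀) = 0 := by
      rw [star_mul, hss.star_eq, mul_assoc, ← mul_assoc s s, ss, sub_mul, one_mul, hσ, sub_self,
        mul_zero]
    exact CStarRing.star_mul_self_eq_zero_iff _ |>.1 h1
  -- the absorbing cut
  set A : ℝ := (l / 2)⁻¹ * ‖ξ₂‖ with hA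
  have hA0 : 0 ≤ A := by positivity
  obtain ⟨M, hu0, hu1, hY, -⟩ := absorb (star ξ₂ * z) (δ := (η / (2 * (A + 1))) ^ 2)
    (by positivity)
  obtain ⟨u, hu⟩ : ∃ u, u = star ξ₂ * z * M := ⟨_, rfl⟩
  rw [← hu] at hu0 hu1 hY
  have hus : IsSelfAdjoint u := hu0.isSelfAdjoint
  have huI : u ∈ I (gen C ζ) := hu ▸ I_mul_right (I_mul_left hz _) _
  have hY' : ‖(1 - u) * (star ξ₂ * z)‖ ≤ η / (2 * (A + 1)) :=
    abs_le_of_sq_le_sq' hY (by positivity) |>.2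
  obtain ⟨ξ', hξ'⟩ : ∃ ξ', ξ' = ξ₂ * (1 - u) := ⟨_, rfl⟩
  have hξ'R : ξ' ∈ RA.carrier := hξ' ▸ RA.mul_mem _ h₂
  have hsξ' : star ξ' = (1 - u) * star ξ₂ := by
    rw [hξ', star_mul, star_sub, star_one, hus.star_eq]
  have hξ'n : ‖ξ'‖ ≤ ‖ξ₂‖ := by
    rw [hξ']
    calc _ ≤ ‖ξ₂‖ * ‖1 - u‖ := norm_mul_le _ _
      _ ≤ ‖ξ₂‖ * 1 := by gcongr; exact norm_one_sub_le hu0 hu1
      _ = _ := mul_one _
  have hcs : IsSelfAdjoint (ξ' * star ξ') := IsSelfAdjoint.mul_star_self ξ'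
  have hcR : ξ' * star ξ' ∈ RA.carrier := RA.mul_mem _ hξ'R
  have a₁c : a₁ * (ξ' * star ξ') = 0 := by
    rw [ha₁def, hξ']
    simp only [mul_assoc]
    rw [← mul_assoc (star ξ₁) ξ₂, h12, zero_mul, mul_zero]
  set c := ξ' * star ξ' with hcdef
  obtain ⟨h₂', hh₂⟩ : ∃ h₂', h₂' = cfc (ramp (l / 2)) c := ⟨_, rfl⟩
  have hr2 : ramp (l / 2) 0 = 0 := ramp_eq_zero l2 l2.le
  have hh₂s : IsSelfAdjoint h₂' := hh₂ ▸ cfc_predicate _ _
  have hh₂0 : 0 ≤ h₂' := hh₂ ▸ cfc_ramp_nonneg _ _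
  have hh₂1 : h₂' ≤ 1 := hh₂ ▸ cfc_ramp_le_one _ _
  have hh₂n : ‖h₂'‖ ≤ 1 := norm_le_one_of hh₂0 hh₂1
  have hh₂R : h₂' ∈ RA.carrier := hh₂ ▸ RI_cfc hcs hcR (continuous_ramp _) hr2
  have h0 : h * h₂' = 0 := by
    rw [hh, hh₂, orth_cfc ha₁ hcs a₁c (continuous_ramp _) (continuous_ramp _) hr2, hr0, zero_smul]
  have h0' : h₂' * h = 0 := by
    have := congrArg star h0
    simpa [star_mul, hh₂s.star_eq, hhs.star_eq] using this
  have g0 : g * h₂' = 0 := by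
    rw [hg, hh₂, orth_cfc ha₁ hcs a₁c (continuous_ramp _) (continuous_ramp _) hr2,
      ramp_eq_zero l32 l32.le, zero_smul]
  have sh₂ : s * h₂' = h₂' := by
    rw [hsd, hh₂, orth_cfc ha₁ hcs a₁c hsc (continuous_ramp _) hr2, hr0]
    simp
  have hcut : h * cfc (cut l) c = 0 := by
    rw [hh, orth_cfc ha₁ hcs a₁c (continuous_ramp _) (continuous_cut _) (cut_zero hl.le), hr0,
      zero_smul]
  have h₂z : ‖h₂' * z‖ ≤ η / 2 := by
    obtain ⟨g₂, e1, -, hg₂⟩ := ramp_factor hcs l2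
    have e2 : h₂' * z = g₂ * (ξ' * ((1 - u) * (star ξ₂ * z))) := by
      rw [hh₂, e1, hcdef, hsξ']
      simp only [mul_assoc]
    rw [e2]
    have hA1 : 0 < A + 1 := by positivity
    calc _ ≤ ‖g₂‖ * (‖ξ'‖ * ‖(1 - u) * (star ξ₂ * z)‖) :=
          (norm_mul_le _ _).trans (by gcongr; exact norm_mul_le _ _)
      _ ≤ (l / 2)⁻¹ * (‖ξ₂‖ * (η / (2 * (A + 1)))) := by gcongr
      _ = A * (η / (2 * (A + 1))) := by rw [hA]; ring
      _ ≤ (A + 1) * (η / (2 * (A + 1))) := by gcongr; linarith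
      _ = η / 2 := by field_simp
  -- the room
  set Rm : RI C := room RA (h + h₂') σ₀ with hRm
  have hζRm : ζ ∈ Rm.carrier := by
    refine ⟨hζ, ?_, hσζ⟩
    rw [add_mul, hζ']
    nth_rewrite 2 [← hζ']
    rw [← mul_assoc, h0', zero_mul, add_zero]
  have hσh : star σ₀ * h = star σ₀ := by
    have := congrArg star hσ
    simpa [star_mul, hhs.star_eq] using this
  have hcRm : cfc (cut l) c ∈ Rm.carrier := by
    refine ⟨RI_cfc hcs hcR (continuous_cut _) (cut_zero hl.le), ?_, ?_⟩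
    · rw [add_mul, hcut, zero_add, hh₂]
      exact ramp_mul_cut hcs l2 (by linarith)
    · rw [← hσh, mul_assoc, hcut, mul_zero]
  have huRm : u ∈ I Rm := N_mono (gen_le hζRm) huI
  have hcN : cfc (cut l) (star ξ' * ξ') ∈ N Rm :=
    flip hl (mem_N_of_I (cfc_cut_nonneg _ _) (mem_I_of_mem hcRm))
  have hjI : star ξ₂ * ξ₂ - star ξ' * ξ' ∈ I Rm := by
    have e : star ξ₂ * ξ₂ - star ξ' * ξ' =
        (star ξ₂ * ξ₂) * u + u * (star ξ₂ * ξ₂ * (1 - u)) := by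
      rw [hsξ', hξ']; noncomm_ring
    rw [e]
    exact I_add (I_mul_left huRm _) (I_mul_right huRm _)
  obtain ⟨m, hm, hjm⟩ := exists_N_ge
    ((IsSelfAdjoint.star_mul_self ξ₂).sub (IsSelfAdjoint.star_mul_self ξ')) hjI
  have hle : star ξ₁ * ξ₁ ≤ (cfc (cut l) (star ξ' * ξ') + m) + algebraMap ℝ U (3 * l) := by
    have e1 := le_add_of_norm_sub_le (IsSelfAdjoint.star_mul_self ξ₁) hk k₁
    have e2 := le_add_of_norm_sub_le hk (IsSelfAdjoint.star_mul_self ξ₂) (e := l)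
      (by rwa [norm_sub_rev] at k₂)
    have e3 := le_cut_add (IsSelfAdjoint.star_mul_self ξ') l
    have e4 : star ξ₂ * ξ₂ ≤ star ξ' * ξ' + m := by
      rw [sub_le_iff_le_add'] at hjm; exact hjm
    have e5 : algebraMap ℝ U (3 * l) = algebraMap ℝ U l + algebraMap ℝ U l + algebraMap ℝ U l := by
      rw [← map_add, ← map_add]; congr 1; ring
    calc star ξ₁ * ξ₁ ≤ k + algebraMap ℝ U l := e1
      _ ≤ (star ξ₂ * ξ₂ + algebraMap ℝ U l) + algebraMap ℝ U l := by gcongr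
      _ ≤ ((star ξ' * ξ' + m) + algebraMap ℝ U l) + algebraMap ℝ U l := by gcongr
      _ ≤ (((cfc (cut l) (star ξ' * ξ') + algebraMap ℝ U l) + m) + algebraMap ℝ U l) +
            algebraMap ℝ U l := by gcongr
      _ = _ := by rw [e5]; abel
  have hN1 : cfc (cut (3 * l)) (star ξ₁ * ξ₁) ∈ N Rm :=
    N_cut (IsSelfAdjoint.star_mul_self ξ₁) (N_add hcN hm) hle
  have hN2 : cfc (cut (3 * l)) a₁ ∈ N Rm := by
    have := flip (x := star ξ₁) l3 (by rwa [star_star])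
    rwa [star_star] at this
  have hhN : h ∈ N Rm := N_ramp ha₁ l3 hN2
  -- the scaling element
  obtain ⟨θ, hθ0, hθ1, hθ2⟩ : ∃ θ : ℝ, 0 < θ ∧ θ ≤ 1 ∧ 9 * θ * ‖z‖ ≤ η / 2 := by
    refine ⟨min 1 (η / (18 * (‖z‖ + 1))), by positivity, min_le_left _ _, ?_⟩
    have hz1 : 0 < ‖z‖ + 1 := by positivity
    calc 9 * min 1 (η / (18 * (‖z‖ + 1))) * ‖z‖ ≤ 9 * (η / (18 * (‖z‖ + 1))) * (‖z‖ + 1) := by
          gcongr
          · exact min_le_right _ _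
          · linarith
      _ = η / 2 := by field_simp; ring
  obtain ⟨x₀, ⟨hx₀R, hx₀1, hx₀2⟩, hx₀⟩ := exists_of_mem_N hhN hθ0
  obtain ⟨x, hx⟩ : ∃ x, x = x₀ * g := ⟨_, rfl⟩
  have hsx : star x = g * star x₀ := by rw [hx, star_mul, hgs.star_eq]
  have hκe : star x * x - h = g * (star x₀ * x₀ - h) * g := by
    rw [hsx, hx, mul_sub, sub_mul, gh, hg']; simp only [mul_assoc]
  have hκ : ‖star x * x - h‖ ≤ θ := by
    rw [hκe]
    calc _ ≤ ‖g‖ * ‖star x₀ * x₀ - h‖ * ‖g‖ :=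
          (norm_mul_le _ _).trans (by gcongr; exact norm_mul_le _ _)
      _ ≤ 1 * θ * 1 := by gcongr
      _ = θ := by ring
  have hxn : ‖x‖ ≤ 2 := by
    have := norm_sq_le_of_approx hκ
    nlinarith [norm_nonneg x]
  have hxR : x ∈ RA.carrier := hx ▸ RA.mul_mem _ hx₀R
  have hHx : (h + h₂') * x = x := by rw [hx, ← mul_assoc, hx₀1]
  have xh₂ : x * h₂' = 0 := by rw [hx, mul_assoc, g0, mul_zero]
  have xσ : star x * σ₀ = 0 := by
    have h1 : star x₀ * σ₀ = 0 := by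
      have := congrArg star hx₀2
      simpa [star_mul] using this
    rw [hsx, mul_assoc, h1, mul_zero]
  have hid := p_id (κ := star x * x - h) hhs hh₂s hss ss sh sh₂ h0 hHx xh₂ (by abel)
  refine ⟨h + h₂' - x * star x + x * s + s * star x, ?_, ?_, ?_, ?_, ?_⟩
  · refine RA.add_mem (RA.add_mem (RA.sub_mem (RA.add_mem hhR hh₂R) (RA.mul_mem _ hxR))
      (RA.mul_mem _ hxR)) ?_
    rw [hsx, ← mul_assoc, sg, mul_assoc]
    exact RA.mul_mem _ hgR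
  · rw [IsSelfAdjoint]
    simp only [star_add, star_sub, star_mul, star_star, hhs.star_eq, hh₂s.star_eq, hss.star_eq]
    abel
  · have n1 : ‖x * star x‖ ≤ 4 := by
      calc _ ≤ ‖x‖ * ‖star x‖ := norm_mul_le _ _
        _ ≤ 2 * 2 := by rw [norm_star]; gcongr
        _ = 4 := by norm_num
    have n2 : ‖x * s‖ ≤ 2 := by
      calc _ ≤ ‖x‖ * ‖s‖ := norm_mul_le _ _
        _ ≤ 2 * 1 := by gcongr
        _ = 2 := by norm_num
    have n3 : ‖s * star x‖ ≤ 2 := by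
      calc _ ≤ ‖s‖ * ‖star x‖ := norm_mul_le _ _
        _ ≤ 1 * 2 := by rw [norm_star]; gcongr
        _ = 2 := by norm_num
    have t1 := norm_add_le (h + h₂' - x * star x + x * s) (s * star x)
    have t2 := norm_add_le (h + h₂' - x * star x) (x * s)
    have t3 := norm_sub_le (h + h₂') (x * star x)
    have t4 := norm_add_le h h₂'
    linarith
  · have h₂σ : h₂' * σ₀ = 0 := by rw [← hσ, ← mul_assoc, h0', zero_mul]
    simp only [add_mul, sub_mul, mul_assoc, hσ, h₂σ, xσ, sσ, mul_zero, add_zero, sub_zero]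
  · rw [hid]
    have e : (h₂' - h₂' * h₂' - (x - s) * (star x * x - h) * star (x - s)) * z =
        (1 - h₂') * (h₂' * z) - (x - s) * (star x * x - h) * star (x - s) * z := by
      noncomm_ring
    rw [e]
    have hxs : ‖x - s‖ ≤ 3 := (norm_sub_le _ _).trans (by linarith)
    have n1 : ‖(1 - h₂') * (h₂' * z)‖ ≤ η / 2 := by
      calc _ ≤ ‖1 - h₂'‖ * ‖h₂' * z‖ := norm_mul_le _ _
        _ ≤ 1 * (η / 2) := by gcongr; exact norm_one_sub_le hh₂0 hh₂1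
        _ = _ := one_mul _
    have n2 : ‖(x - s) * (star x * x - h) * star (x - s) * z‖ ≤ η / 2 := by
      calc _ ≤ ‖x - s‖ * ‖star x * x - h‖ * ‖star (x - s)‖ * ‖z‖ := by
            refine (norm_mul_le _ _).trans ?_
            gcongr
            refine (norm_mul_le _ _).trans ?_
            gcongr
            exact norm_mul_le _ _
        _ ≤ 3 * θ * 3 * ‖z‖ := by rw [norm_star]; gcongr
        _ = 9 * θ * ‖z‖ := by ring
        _ ≤ η / 2 := hθ2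
    have := norm_sub_le ((1 - h₂') * (h₂' * z)) ((x - s) * (star x * x - h) * star (x - s) * z)
    linarith

end Crest.Agent.R110B
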