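import Crest.Agent.R110B.Orth

set_option autoImplicit false

namespace Crest.Agent.R110B

variable {U : Type*} [CStarAlgebra U] [PartialOrder U] [StarOrderedRing U]

variable {C : Amb U}

/-- Rayleigh window. `T = β S β`, `T₊ = cfc (cut 0) T`, `τ = β T₊ r`: `τ⋆ S τ = r⋆ T₊³ r ≥ 0`, and
`T₊³ = (β T₊)⋆ S (β T₊) ≤ ‖S‖ (β T₊)⋆ (β T₊)` puts `T₊` in `I (gen C (β T₊))`
(`N_cfc`/`N_of_sq`), so `n ∈ N (gen C (β T₊))`; finish with `exists_gen`. -/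
theorem ray0 {R : RI C} {β S n : U} (hβ : β ∈ R.carrier) (hβs : IsSelfAdjoint β)
    (hS : IsSelfAdjoint S) (hn : n ∈ N (gen C (cfc (cut 0) (β * S * β)))) {η : ℝ} (hη : 0 < η) :
    ∃ τ ∈ R.carrier, 0 ≤ star τ * S * τ ∧ ‖star τ * τ - n‖ < η := by
  sorry

/-- Sum lemma. `β = τ₁ τ₁⋆ + τ₂ τ₂⋆`, `β vᵢ ≈ τᵢ` (`ap`), `vᵢ⋆ T₊ vᵢ ≥ vᵢ⋆ T vᵢ ≈ τᵢ⋆ S τᵢ`, so
`cut ((e + θ) / c) (τᵢ⋆ τᵢ) ∈ N (gen C T₊)` (`N_cut`); add, `ray0`, `norm_cut_sub`. -/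
theorem ray2 {R : RI C} {τ₁ τ₂ S : U} (h₁ : τ₁ ∈ R.carrier) (h₂ : τ₂ ∈ R.carrier)
    (hS : IsSelfAdjoint S) {c e : ℝ} (hc : 0 < c) (he : 0 ≤ e)
    (k₁ : c • (star τ₁ * τ₁) ≤ star τ₁ * S * τ₁ + algebraMap ℝ U e)
    (k₂ : c • (star τ₂ * τ₂) ≤ star τ₂ * S * τ₂ + algebraMap ℝ U e) {η : ℝ} (hη : 0 < η) :
    ∃ τ ∈ R.carrier, 0 ≤ star τ * S * τ ∧
      ‖star τ * τ - (star τ₁ * τ₁ + star τ₂ * τ₂)‖ < 2 * e / c + η := by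
  sorry

end Crest.Agent.R110B
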