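import Crest.Agent.R110B.Ray

set_option autoImplicit false

namespace Crest.Agent.R110B

variable {U : Type*} [CStarAlgebra U] [PartialOrder U] [StarOrderedRing U]

variable {C : Amb U}

/-- Splitting the target on the `A` side along a trivial copy `τ₁`. Take `σ₀ ∈ RA`, `σ₀⋆σ₀ ≈ d`,
`β = σ₀ σ₀⋆`, `β v₀ ≈ σ₀` (`ap`), `S = s² - w τ₁ τ₁⋆ w⋆`, `T = β S β`, `n = β w τ₁ τ₁⋆ w⋆ β`:
`s² β β = T + n ≤ T₊ + n`; `rz` splits `(β v₀)⋆ (β v₀) ≈ d₁ + d₂` with `d₁ ∈ N (gen C T₊)` and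
`d₂ = (conj of n) ∈ N RA ∩ N R₂`; `ray0` turns `d₁` into `σ'`. -/
theorem split {RA R₂ : RI C} {d τ₁ : U} (hd : d ∈ N RA) (hτ : τ₁ ∈ I R₂) (w : U) {s : ℝ}
    (hs : 0 < s) {θ : ℝ} (hθ : 0 < θ) :
    ∃ σ' ∈ RA.carrier, ∃ d₂ ∈ N RA, d₂ ∈ N R₂ ∧ ‖star σ' * σ' + d₂ - d‖ < θ ∧
      (star σ' * w * τ₁) * star (star σ' * w * τ₁) ≤ (s ^ 2) • (star σ' * σ') := by
  sorry

end Crest.Agent.R110B
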