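import Crest.Agent.R110B.Cont
import Crest.Agent.R110B.Split

set_option autoImplicit false

namespace Crest.Agent.R110B

variable {U : Type*} [CStarAlgebra U] [PartialOrder U] [StarOrderedRing U]

variable {C : Amb U}

/-- The gain `9 / 10`. `W = ‖w‖ + tiny`. `orth` in `RB` gives `ξ₁ ⊥ ξ₂`; `R₂ = gen C ξ₂`,
`τ₁ = ξ₁ * ramp θ (ξ₂⋆ξ₂) ∈ RB ∩ I R₂`, still `τ₁⋆ R₂ = 0` and `τ₁⋆τ₁ ≈ d'`. `split` with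
`s = W / 5`; `cont` with the roles swapped (`R₂`, `ξ₂⋆ξ₂`; `RA`, `d₂`; `w⋆`) gives `τ₂ ∈ R₂`,
`σ'' ∈ RA`. `τ = (√2)⁻¹ • (τ₁ + τ₂)`. By `cs` (`t = 5` for `σ'`, `t = 1 / 4` for `σ''`)
`σ⋆ w τ τ⋆ w⋆ σ ≤ (3 / 4) W² σ⋆σ + small` for both pieces; `ray2` with
`S = (4 / 5) W² - w τ τ⋆ w⋆`, `c = W² / 20`; finally `4 / 5 < (9 / 10)²`. -/
theorem red {RA RB : RI C} {d d' : U} (hd : d ∈ N RA) (hd' : d' ∈ N RB) (hd1 : ‖d‖ ≤ 1)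
    (hd1' : ‖d'‖ ≤ 1) (w : U) {ε : ℝ} (hε : 0 < ε) :
    ∃ σ ∈ RA.carrier, ∃ τ ∈ RB.carrier, ‖star σ * σ - d‖ < ε ∧ ‖star τ * τ - d'‖ < ε ∧
      ‖star σ * w * τ‖ ≤ 9 / 10 * ‖w‖ + ε := by
  sorry

end Crest.Agent.R110B
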