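import Crest.Agent.R110B.Fin

set_option autoImplicit false

namespace Crest.Agent.R110B

/-- Transfer to the unitization (`CStarAlgebra.spectralOrder` on `C`, ambient ideal = range of
`Unitization.inr`). -/
theorem top (C : Type*) [NonUnitalCStarAlgebra C]
    (hC : ∀ x : C, Crest.OpAlg.IsProperlyInfinite (star x * x))
    (a b c : C) (ha : ∃ x : C, a = star x * x) (hb : ∃ y : C, b = star y * y) (ε : ℝ) (hε : 0 < ε) :
    ∃ s t : C, ‖star s * a * s - a‖ < ε ∧ ‖star t * b * t - b‖ < ε ∧ ‖star s * c * t‖ < ε := by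
  sorry

end Crest.Agent.R110B
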